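import Vale.Agent.P207.H761.InterB

/-!
# P207, line b < 2a, row T3: nearly intertwined smooth maps, second order

`inter2`: if `P' ∘ A₁ - A₂ ∘ P` is of size `t`, then its second order Taylor remainder at the centre
is of size `t ^ κ ‖w‖ ^ 2`, for every `κ < 1`.
-/

set_option linter.all false
set_option maxSynthPendingDepth 3

namespace Vale.Agent.P207.H988

open Filter Topology Set Metric
open scoped ContDiff

/-- interpolation for the second derivative at the centre of a ball -/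
theorem interp_two {E : Type} [NormedAddCommGroup E] [NormedSpace ℝ E] {κ r C₀ : ℝ}
    (hκ0 : 0 < κ) (hκ : κ < 1) (hr : 0 < r) (hC₀ : 0 ≤ C₀) (M : ℕ → ℝ) :
    ∃ K : ℝ, 0 ≤ K ∧ ∀ (Z : E → E) (c : E) (s : ℝ), ContDiffOn ℝ ∞ Z (ball c r) →
      (∀ k, 1 ≤ k → ∀ y ∈ ball c r, ‖iteratedFDeriv ℝ k Z y‖ ≤ M k) → 0 < s →
      (∀ y ∈ ball c r, ‖Z y‖ ≤ C₀ * s) → ‖iteratedFDeriv ℝ 2 Z c‖ ≤ K * s ^ κ := by
  classical
  set D : ℝ := C₀ + 1 with hD
  have hD0 : 0 < D := by positivity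
  obtain ⟨C, hC, H⟩ := Vale.Agent.P207.H469.exists_interp_full.{0} hr 2 (ε := 1 - κ)
    (by linarith) (fun k => if k = 0 then 1 else M k)
  refine ⟨(C + |M 2|) * D ^ κ, by positivity, ?_⟩
  intro Z c s hZ hM hs hb
  have hc : c ∈ ball c r := mem_ball_self hr
  have hDs : 0 < D * s := mul_pos hD0 hs
  have e1 : (D * s) ^ κ = D ^ κ * s ^ κ := Real.mul_rpow hD0.le hs.le
  have hp : 0 < (D * s) ^ κ := Real.rpow_pos_of_pos hDs _
  rw [mul_assoc, ← e1]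
  rcases lt_or_ge 1 (D * s) with h1 | h1
  · have h2 : 1 ≤ (D * s) ^ κ := Real.one_le_rpow h1.le hκ0.le
    have h3 : ‖iteratedFDeriv ℝ 2 Z c‖ ≤ |M 2| :=
      (hM 2 (by norm_num) c hc).trans (le_abs_self _)
    calc ‖iteratedFDeriv ℝ 2 Z c‖ ≤ |M 2| * 1 := by rw [mul_one]; exact h3
      _ ≤ (C + |M 2|) * (D * s) ^ κ := by
          apply mul_le_mul _ h2 zero_le_one (by positivity)
          linarith
  · set W : E → E := fun w => Z (c + w) with hW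
    have hmem : ∀ w ∈ ball (0 : E) r, c + w ∈ ball c r := by
      intro w hw
      rw [mem_ball, dist_eq_norm, add_sub_cancel_left]
      simpa using hw
    have hWs : ContDiffOn ℝ ∞ W (ball 0 r) :=
      hZ.comp (contDiff_const.add contDiff_id).contDiffOn hmem
    have hWi : ∀ (k : ℕ) (w : E), iteratedFDeriv ℝ k W w = iteratedFDeriv ℝ k Z (c + w) := by
      intro k w
      have := iteratedFDeriv_comp_add_left (𝕜 := ℝ) (f := Z) k c w
      exact this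
    have hb' : ∀ w ∈ ball (0 : E) r, ‖W w‖ ≤ D * s := fun w hw => (hb _ (hmem w hw)).trans
        (mul_le_mul_of_nonneg_right (by linarith) hs.le)
    have h3 := H E E W hWs (fun k w hw => by
      rcases Nat.eq_zero_or_pos k with rfl | hk
      · simp only [norm_iteratedFDeriv_zero, if_true]
        exact (hb' w hw).trans h1
      · have hk0 : k ≠ 0 := by omega
        simp only [if_neg hk0]
        rw [hWi]
        exact hM k hk _ (hmem w hw)) (D * s) hDs h1 hb' 0 (mem_ball_self hr)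
    rw [hWi, add_zero, sub_sub_cancel] at h3
    refine h3.trans (mul_le_mul_of_nonneg_right ?_ hp.le)
    have := abs_nonneg (M 2)
    linarith

theorem lim_le {κ K a t : ℝ} (hκ : 0 < κ) (ht : 0 ≤ t)
    (h : ∀ s, t ≤ s → 0 < s → a ≤ K * s ^ κ) : a ≤ K * t ^ κ := by
  rcases ht.eq_or_lt with h0 | h0
  · rw [← h0, Real.zero_rpow hκ.ne', mul_zero]
    have h1 : Tendsto (fun s : ℝ => K * s ^ κ) (𝓝[>] 0) (𝓝 (K * 0 ^ κ)) :=
      ((Real.continuousAt_rpow_const 0 κ (Or.inr hκ.le)).tendsto.const_mul K).mono_left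
        nhdsWithin_le_nhds
    rw [Real.zero_rpow hκ.ne', mul_zero] at h1
    refine ge_of_tendsto h1 ?_
    filter_upwards [self_mem_nhdsWithin] with s hs
    exact h s (by rw [← h0]; exact (mem_Ioi.1 hs).le) hs
  · exact h t le_rfl h0

/-- a second order Taylor estimate on a convex set -/
theorem taylor_conv {E : Type*} [NormedAddCommGroup E] [NormedSpace ℝ E] {f : E → E} {C : ℝ}
    {D : Set E} (hD : Convex ℝ D) (h0 : (0 : E) ∈ D)
    (hf : ∀ z ∈ D, ContDiffAt ℝ ∞ f z) (hC : ∀ q ∈ D, ‖iteratedFDeriv ℝ 2 f q‖ ≤ C) {q : E}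
    (hq : q ∈ D) : ‖f q - f 0 - fderiv ℝ f 0 q‖ ≤ C * ‖q‖ ^ 2 := by
  have hC0 : 0 ≤ C := (norm_nonneg _).trans (hC 0 h0)
  have h2i : (2 : WithTop ℕ∞) ≤ ∞ := WithTop.coe_le_coe.2 (le_top : (2 : ℕ∞) ≤ ⊤)
  have hd2 : ∀ z ∈ D, DifferentiableAt ℝ (fderiv ℝ f) z := fun z hz =>
    (((hf z hz).of_le h2i).fderiv_right (m := 1) (by norm_num)).differentiableAt (by norm_num)
  have hn : ∀ z ∈ D, ‖fderiv ℝ (fderiv ℝ f) z‖ ≤ C := fun z hz => by
    rw [← norm_iteratedFDeriv_one, norm_iteratedFDeriv_fderiv]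
    exact hC z hz
  have h1 : ∀ z ∈ D, ‖fderiv ℝ f z - fderiv ℝ f 0‖ ≤ C * ‖z‖ := fun z hz => by
    have := hD.norm_image_sub_le_of_norm_fderiv_le (𝕜 := ℝ) hd2 hn h0 hz
    rwa [sub_zero] at this
  have hseg : segment ℝ 0 q ⊆ D := hD.segment_subset h0 hq
  have hsn : ∀ z ∈ segment ℝ (0 : E) q, ‖z‖ ≤ ‖q‖ := by
    intro z hz
    rw [segment_eq_image] at hz
    obtain ⟨θ, hθ, rfl⟩ := hz
    simp only [smul_zero, zero_add]
    rw [norm_smul, Real.norm_eq_abs, abs_of_nonneg hθ.1]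
    exact mul_le_of_le_one_left (norm_nonneg _) hθ.2
  have h3 := (convex_segment (𝕜 := ℝ) (0 : E) q).norm_image_sub_le_of_norm_fderiv_le' (𝕜 := ℝ)
    (f := f) (φ := fderiv ℝ f 0) (C := C * ‖q‖) (x := 0) (y := q)
    (fun z hz => (hf z (hseg hz)).differentiableAt (by simp))
    (fun z hz => (h1 z (hseg hz)).trans (mul_le_mul_of_nonneg_left (hsn z hz) hC0))
    (left_mem_segment ℝ _ _) (right_mem_segment ℝ _ _)
  rw [sub_zero] at h3
  refine h3.trans_eq ?_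
  ring

/-- **nearly intertwined maps, second order** -/
theorem inter2 {E : Type} [NormedAddCommGroup E] [NormedSpace ℝ E] {κ C₀ c l : ℝ}
    (hκ0 : 0 < κ) (hκ : κ < 1) (hC₀ : 0 ≤ C₀) (hc : 0 ≤ c) (hl : 0 ≤ l) (M : ℕ → ℝ)
    (hM : ∀ k, 0 ≤ M k) : ∃ K : ℝ, 0 ≤ K ∧ ∀ (A₁ A₂ : E → E) (P' : E →L[ℝ] E) (P : E ≃L[ℝ] E)
      (t : ℝ), ContDiffOn ℝ ∞ A₁ (ball 0 1) → ContDiffOn ℝ ∞ A₂ (ball 0 1) →
      (∀ k, 1 ≤ k → ∀ q ∈ ball (0 : E) 1, ‖iteratedFDeriv ℝ k A₁ q‖ ≤ M k) →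
      (∀ k, 1 ≤ k → ∀ q ∈ ball (0 : E) 1, ‖iteratedFDeriv ℝ k A₂ q‖ ≤ M k) →
      ‖P'‖ ≤ c → (∀ w, ‖P w‖ ≤ l * ‖w‖) → (∀ w, ‖w‖ ≤ ‖P w‖) → 0 ≤ t →
      (∀ w, ‖P w‖ < 3 / 4 → ‖P' (A₁ w) - A₂ (P w)‖ ≤ C₀ * t) →
      ∀ w, ‖P w‖ ≤ 1 / 2 → ‖(P' (A₁ w) - A₂ (P w)) - (P' (A₁ 0) - A₂ 0) -
        (P' (fderiv ℝ A₁ 0 w) - fderiv ℝ A₂ 0 (P w))‖ ≤ K * t ^ κ * ‖w‖ ^ 2 := by
  classical
  set r : ℝ := 1 / (4 * (l + 1)) with hr
  have hr0 : 0 < r := by positivity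
  have hlr : l * r ≤ 1 / 4 := by
    rw [hr, mul_one_div, div_le_iff₀ (by positivity)]
    linarith
  obtain ⟨K, hK, H⟩ := interp_two (E := E) hκ0 hκ hr0 hC₀ (fun k => c * M k + l ^ k * M k)
  refine ⟨K, hK, fun A₁ A₂ P' P t h1 h2 hb1 hb2 hP' hP hPe ht hZ w hw => ?_⟩
  set Z : E → E := fun w => P' (A₁ w) - A₂ (P w) with hZdef
  have ho : IsOpen (ball (0 : E) 1) := isOpen_ball
  have hd1 : ∀ w, ‖P w‖ < 3 / 4 → w ∈ ball (0 : E) 1 := fun w hw => by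
    rw [mem_ball_zero_iff]
    linarith [hPe w]
  have hd2 : ∀ w, ‖P w‖ < 3 / 4 → P w ∈ ball (0 : E) 1 := fun w hw => by
    rw [mem_ball_zero_iff]
    linarith
  have c1 : ∀ w, ‖P w‖ < 3 / 4 → ContDiffAt ℝ ∞ (fun w => P' (A₁ w)) w := by
    intro w hw
    exact P'.contDiff.contDiffAt.comp w (h1.contDiffAt (ho.mem_nhds (hd1 w hw)))
  have c2 : ∀ w, ‖P w‖ < 3 / 4 → ContDiffAt ℝ ∞ (fun w => A₂ (P w)) w := by
    intro w hw
    exact (h2.contDiffAt (ho.mem_nhds (hd2 w hw))).comp w P.contDiff.contDiffAt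
  have hZc : ∀ w, ‖P w‖ < 3 / 4 → ContDiffAt ℝ ∞ Z w := fun w hw => (c1 w hw).sub (c2 w hw)
  have hZb : ∀ k, 1 ≤ k → ∀ y, ‖P y‖ < 3 / 4 →
      ‖iteratedFDeriv ℝ k Z y‖ ≤ c * M k + l ^ k * M k := by
    intro k hk y hy
    have b1 : ‖iteratedFDeriv ℝ k (fun w => P' (A₁ w)) y‖ ≤ c * M k := by
      have e1 := H106.norm_iterated_comp ho h1 (ContinuousLinearEquiv.refl ℝ E) (l := 1)
        (fun x => by simp) zero_le_one P' hP' k (x := y) (by simpa using hd1 y hy)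
      simp only [ContinuousLinearEquiv.refl_apply, one_pow, mul_one] at e1
      exact e1.trans (mul_le_mul_of_nonneg_left (hb1 k hk _ (hd1 y hy)) hc)
    have b2 : ‖iteratedFDeriv ℝ k (fun w => A₂ (P w)) y‖ ≤ l ^ k * M k := by
      have e1 := H106.norm_iterated_comp ho h2 P hP hl (ContinuousLinearMap.id ℝ E) (c := 1)
        ContinuousLinearMap.norm_id_le k (x := y) (hd2 y hy)
      simp only [ContinuousLinearMap.id_apply, one_mul] at e1
      exact e1.trans (mul_le_mul_of_nonneg_left (hb2 k hk _ (hd2 y hy)) (by positivity))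
    have d1 : ContDiffAt ℝ k (fun w => P' (A₁ w)) y := (c1 y hy).of_le (by exact_mod_cast le_top)
    have d2 : ContDiffAt ℝ k (fun w => A₂ (P w)) y := (c2 y hy).of_le (by exact_mod_cast le_top)
    have e1 : iteratedFDeriv ℝ k Z y = iteratedFDeriv ℝ k (fun w => P' (A₁ w)) y -
        iteratedFDeriv ℝ k (fun w => A₂ (P w)) y := by
      have e2 : Z = (fun w => P' (A₁ w)) - fun w => A₂ (P w) := rfl
      rw [e2, iteratedFDeriv_sub_apply d1 d2]
    rw [e1]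
    exact (norm_sub_le _ _).trans (add_le_add b1 b2)
  have hball : ∀ q, ‖P q‖ ≤ 1 / 2 → ∀ y ∈ ball q r, ‖P y‖ < 3 / 4 := by
    intro q hq y hy
    rw [mem_ball, dist_eq_norm] at hy
    have h3 : ‖P (y - q)‖ ≤ l * r := (hP _).trans (mul_le_mul_of_nonneg_left hy.le hl)
    rcases hl.eq_or_lt with h0 | h0
    · have h4 : ‖P (y - q)‖ ≤ 0 := by
        have := hP (y - q)
        rwa [← h0, zero_mul] at this
      calc ‖P y‖ = ‖P (y - q) + P q‖ := by rw [← map_add, sub_add_cancel]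
        _ ≤ ‖P (y - q)‖ + ‖P q‖ := norm_add_le _ _
        _ < 3 / 4 := by linarith
    · have h4 : ‖P (y - q)‖ < l * r := (hP _).trans_lt (mul_lt_mul_of_pos_left hy h0)
      calc ‖P y‖ = ‖P (y - q) + P q‖ := by rw [← map_add, sub_add_cancel]
        _ ≤ ‖P (y - q)‖ + ‖P q‖ := norm_add_le _ _
        _ < 3 / 4 := by linarith
  have h2nd : ∀ q, ‖P q‖ ≤ 1 / 2 → ‖iteratedFDeriv ℝ 2 Z q‖ ≤ K * t ^ κ := by
    intro q hq
    refine lim_le hκ0 ht fun s hts hs => ?_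
    exact H Z q s (fun y hy => (hZc y (hball q hq y hy)).contDiffWithinAt)
      (fun k hk y hy => hZb k hk y (hball q hq y hy)) hs
      (fun y hy => (hZ y (hball q hq y hy)).trans (mul_le_mul_of_nonneg_left hts hC₀))
  have hP0 : ‖P (0 : E)‖ ≤ 1 / 2 := by rw [map_zero, norm_zero]; norm_num
  have hconv : Convex ℝ {q : E | ‖P q‖ ≤ 1 / 2} := by
    have e : {q : E | ‖P q‖ ≤ 1 / 2} = (P : E →L[ℝ] E) ⁻¹' closedBall 0 (1 / 2) := by
      ext q
      simp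
    rw [e]
    exact (convex_closedBall (0 : E) (1 / 2)).linear_preimage ((P : E →L[ℝ] E) : E →ₗ[ℝ] E)
  have h5 := taylor_conv (f := Z) (C := K * t ^ κ) hconv hP0
    (fun z hz => hZc z (lt_of_le_of_lt hz (by norm_num))) (fun q hq => h2nd q hq) hw
  have h6 : fderiv ℝ Z 0 = P'.comp (fderiv ℝ A₁ 0) - (fderiv ℝ A₂ 0).comp (P : E →L[ℝ] E) := by
    have f1 : HasFDerivAt A₁ (fderiv ℝ A₁ 0) 0 :=
      ((h1.contDiffAt (ho.mem_nhds (mem_ball_self one_pos))).differentiableAt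
        (by simp)).hasFDerivAt
    have f2 : HasFDerivAt A₂ (fderiv ℝ A₂ 0) (P 0) := by
      rw [map_zero]
      exact ((h2.contDiffAt (ho.mem_nhds (mem_ball_self one_pos))).differentiableAt
        (by simp)).hasFDerivAt
    have k2 : HasFDerivAt (fun w => P' (A₁ w)) (P'.comp (fderiv ℝ A₁ 0)) 0 :=
      P'.hasFDerivAt.comp 0 f1
    have k3 : HasFDerivAt (fun w => A₂ (P w)) ((fderiv ℝ A₂ 0).comp (P : E →L[ℝ] E)) 0 :=
      f2.comp 0 (P : E →L[ℝ] E).hasFDerivAt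
    exact (k2.sub k3).fderiv
  rw [h6] at h5
  have e7 : Z 0 = P' (A₁ 0) - A₂ 0 := by rw [hZdef]; simp only [map_zero]
  rw [e7] at h5
  exact h5

end Vale.Agent.P207.H988
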